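import Vale.Agent.P329.H548.One
import Mathlib.Data.ZMod.Basic
import Mathlib.Algebra.BigOperators.Fin
import Mathlib.Algebra.BigOperators.Group.Finset.Piecewise
import Mathlib.Algebra.BigOperators.Ring.Finset

/-! Towers of cyclic counters: one star for all finite abelian groups -/

namespace Vale.Agent.P329.H548

open Vale.Agent.P329

/-- a monotone system on which the letters of `S` are counted modulo `m` -/
def HasSys (α : Type) [DecidableEq α] (m : ℕ) (S : Finset α) : Prop :=
  ∃ (X : Type) (_ : Finite X) (act : α → Equiv.Perm X) (r : X) (pot : X → ℕ),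
    (∀ x, x ≠ r → pot x < pot r) ∧
    (∀ a x, x ≠ r → act a x = x ∨ pot x < pot (act a x)) ∧
    (∀ a, a ∉ S → act a = 1) ∧
    (∀ x, ∃ p, go act r p = x) ∧
    (∀ u v : List α, (∀ x, go act x u = go act x v) → ∀ a ∈ S, (u.count a : ZMod m) = v.count a)

theorem hasSys_empty (α : Type) [DecidableEq α] (m : ℕ) : HasSys α m ∅ := by
  refine ⟨Unit, inferInstance, fun _ => 1, (), fun _ => 0, ?_, ?_, ?_, ?_, ?_⟩
  · intro x hx; exact absurd rfl hx
  · intro a x hx; exact absurd rfl hx
  · intro a _; rfl
  · intro x; exact ⟨[], rfl⟩
  · intro u v _ a ha; exact absurd ha (Finset.notMem_empty a)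

section step

variable {α : Type} [DecidableEq α] {X : Type} (act : α → Equiv.Perm X) (r : X) (m : ℕ)
  (S : Finset α)

open Classical in
/-- the step of the counter -/
noncomputable def st (x : X) (a : α) : ZMod m := if x = r ∧ a ∈ S then 1 else 0

/-- the next level -/
noncomputable def act' (a : α) : Equiv.Perm (X × ZMod m) where
  toFun z := (act a z.1, z.2 + st r m S z.1 a)
  invFun z := ((act a)⁻¹ z.1, z.2 - st r m S ((act a)⁻¹ z.1) a)
  left_inv := by
    rintro ⟨x, y⟩
    simp
  right_inv := by
    rintro ⟨x, y⟩
    simp

theorem act'_apply (a : α) (x : X) (y : ZMod m) :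
    act' act r m S a (x, y) = (act a x, y + st r m S x a) := rfl

/-- total displacement -/
noncomputable def disp : X → List α → ZMod m
  | _, [] => 0
  | x, a :: w => st r m S x a + disp (act a x) w

theorem go'_eq (w : List α) (x : X) (y : ZMod m) :
    go (act' act r m S) (x, y) w = (go act x w, y + disp act r m S x w) := by
  induction w generalizing x y with
  | nil => simp [go, disp]
  | cons a w ih =>
    rw [go, act'_apply, ih]
    simp only [go, disp, add_assoc]

theorem sum_disp [Fintype X] (w : List α) :
    ∑ x, disp act r m S x w = ∑ a ∈ S, (w.count a : ZMod m) := by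
  classical
  induction w with
  | nil => simp [disp]
  | cons b w ih =>
    have h1 : ∑ x, disp act r m S x (b :: w) = ∑ x, st r m S x b + ∑ x, disp act r m S x w := by
      simp only [disp]
      rw [Finset.sum_add_distrib]
      congr 1
      exact Equiv.sum_comp (act b) (fun x => disp act r m S x w)
    have h2 : ∑ x, st r m S x b = if b ∈ S then 1 else 0 := by
      unfold st
      by_cases hb : b ∈ S
      · simp [hb]
      · simp [hb]
    have h3 : ∑ a ∈ S, ((b :: w).count a : ZMod m) =
        (if b ∈ S then 1 else 0) + ∑ a ∈ S, (w.count a : ZMod m) := by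
      have : ∀ a ∈ S, ((b :: w).count a : ZMod m) = (if b = a then 1 else 0) + (w.count a : ZMod m) := by
        intro a _
        rw [List.count_cons]
        by_cases h : b = a
        · subst h; simp [add_comm]
        · simp [h]
      rw [Finset.sum_congr rfl this, Finset.sum_add_distrib]
      congr 1
      simp
    rw [h1, h2, h3, ih]

end step

theorem val_pred {m : ℕ} [NeZero m] {y : ZMod m} (hy : y ≠ 0) : (y - 1).val + 1 = y.val := by
  have hm : m ≠ 1 := by
    rintro rfl
    exact hy (Subsingleton.elim _ _)
  have h1 : (1 : ZMod m).val = 1 := ZMod.val_one'' hm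
  have h2 : 1 ≤ y.val := by
    rcases Nat.eq_zero_or_pos y.val with h | h
    · exact absurd ((ZMod.val_eq_zero y).1 h) hy
    · exact h
  have h3 : (y - 1).val = y.val - (1 : ZMod m).val := ZMod.val_sub (by rw [h1]; exact h2)
  rw [h3, h1]; omega

theorem hasSys_insert {α : Type} [DecidableEq α] {m : ℕ} [NeZero m] {S : Finset α} {b : α}
    (hb : b ∉ S) (h : HasSys α m S) : HasSys α m (insert b S) := by
  classical
  obtain ⟨X, hX, act, r, pot, h1, h2, h3, h4, h5⟩ := h
  haveI : Finite X := hX
  have hle : ∀ x, pot x ≤ pot r := by
    intro x
    by_cases hx : x = r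
    · rw [hx]
    · exact (h1 x hx).le
  refine ⟨X × ZMod m, inferInstance, act' act r m (insert b S), (r, 0),
    fun z => (z.2 - 1).val * (pot r + 1) + pot z.1, ?_, ?_, ?_, ?_, ?_⟩
  · rintro ⟨x, y⟩ hxy
    change (y - 1).val * (pot r + 1) + pot x < ((0 : ZMod m) - 1).val * (pot r + 1) + pot r
    by_cases hy : y = 0
    · subst hy
      have hx : x ≠ r := by rintro rfl; exact hxy rfl
      have := h1 x hx
      omega
    · have e1 := val_pred hy
      have e2 : ((0 : ZMod m) - 1).val + 1 = m := by
        by_cases hm : m = 1
        · subst hm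
          have : ((0 : ZMod 1) - 1).val = 0 := by
            have := ZMod.val_lt ((0 : ZMod 1) - 1)
            omega
          omega
        · have h0 : (0 : ZMod m) - 1 = -1 := by ring
          rw [h0, ZMod.neg_val, ZMod.val_one'' hm]
          have hne : (1 : ZMod m) ≠ 0 := by
            intro h
            have := congrArg ZMod.val h
            rw [ZMod.val_one'' hm, ZMod.val_zero] at this
            omega
          rw [if_neg hne]
          have := NeZero.pos m
          omega
      have e3 := ZMod.val_lt y
      have e4 : (y - 1).val + 1 ≤ ((0 : ZMod m) - 1).val := by omega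
      have e5 := Nat.mul_le_mul_right (pot r + 1) e4
      have e6 := hle x
      have e7 : ((y - 1).val + 1) * (pot r + 1) = (y - 1).val * (pot r + 1) + (pot r + 1) := by ring
      omega
  · rintro a ⟨x, y⟩ hxy
    rw [act'_apply]
    by_cases hx : x = r
    · subst hx
      have hy : y ≠ 0 := by rintro rfl; exact hxy rfl
      by_cases ha : a ∈ insert b S
      · right
        have hst : st x m (insert b S) x a = 1 := by unfold st; rw [if_pos ⟨rfl, ha⟩]
        change (y - 1).val * (pot x + 1) + pot x <
          (y + st x m (insert b S) x a - 1).val * (pot x + 1) + pot (act a x)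
        rw [hst, add_sub_cancel_right, ← val_pred hy]
        have e7 : ((y - 1).val + 1) * (pot x + 1) = (y - 1).val * (pot x + 1) + (pot x + 1) := by
          ring
        omega
      · left
        have hst : st x m (insert b S) x a = 0 := by
          unfold st; rw [if_neg]; rintro ⟨-, h⟩; exact ha h
        have ha' : a ∉ S := fun h => ha (Finset.mem_insert_of_mem h)
        rw [hst, h3 a ha']
        simp
    · have hst : st r m (insert b S) x a = 0 := by
        unfold st; rw [if_neg]; rintro ⟨h, -⟩; exact hx h
      rcases h2 a x hx with h | h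
      · left; rw [hst, h, add_zero]
      · right
        change (y - 1).val * (pot r + 1) + pot x <
          (y + st r m (insert b S) x a - 1).val * (pot r + 1) + pot (act a x)
        rw [hst, add_zero]
        omega
  · intro a ha
    have ha' : a ∉ S := fun h => ha (Finset.mem_insert_of_mem h)
    ext ⟨x, y⟩ : 1
    rw [act'_apply, h3 a ha']
    have hst : st r m (insert b S) x a = 0 := by
      unfold st; rw [if_neg]; rintro ⟨-, h⟩; exact ha h
    rw [hst]
    simp
  · rintro ⟨x, y⟩
    obtain ⟨p, hp⟩ := h4 x
    have hn : ∀ n : ℕ, go (act' act r m (insert b S)) (r, 0) (List.replicate n b) = (r, (n : ZMod m)) := by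
      have hgen : ∀ (n : ℕ) (z : ZMod m), go (act' act r m (insert b S)) (r, z)
          (List.replicate n b) = (r, z + (n : ZMod m)) := by
        intro n
        induction n with
        | zero => intro z; simp [go]
        | succ n ih =>
          intro z
          rw [List.replicate_succ, go, act'_apply]
          have hst : st r m (insert b S) r b = 1 := by
            unfold st; rw [if_pos ⟨rfl, Finset.mem_insert_self _ _⟩]
          rw [h3 b hb, hst]
          change go (act' act r m (insert b S)) (r, z + 1) (List.replicate n b) = _
          rw [ih]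
          congr 1
          push_cast
          ring
      intro n
      rw [hgen, zero_add]
    refine ⟨List.replicate (y - disp act r m (insert b S) r p).val b ++ p, ?_⟩
    rw [go_append, hn, go'_eq, hp, ZMod.natCast_val, ZMod.cast_id]
    congr 1
    ring
  · intro u v huv
    haveI := Fintype.ofFinite X
    have e1 : ∀ x, go act x u = go act x v ∧
        disp act r m (insert b S) x u = disp act r m (insert b S) x v := by
      intro x
      have := huv (x, 0)
      rw [go'_eq, go'_eq, Prod.mk.injEq, zero_add, zero_add] at this
      exact this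
    have e2 := h5 u v fun x => (e1 x).1
    have e3 : ∑ a ∈ insert b S, (u.count a : ZMod m) = ∑ a ∈ insert b S, (v.count a : ZMod m) := by
      rw [← sum_disp act r m (insert b S) u, ← sum_disp act r m (insert b S) v]
      exact Finset.sum_congr rfl fun x _ => (e1 x).2
    rw [Finset.sum_insert hb, Finset.sum_insert hb, Finset.sum_congr rfl e2] at e3
    intro a ha
    rcases Finset.mem_insert.1 ha with rfl | ha
    · exact add_right_cancel e3
    · exact e2 a ha

theorem hasSys (α : Type) [DecidableEq α] (m : ℕ) [NeZero m] (S : Finset α) : HasSys α m S := by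
  induction S using Finset.induction_on with
  | empty => exact hasSys_empty α m
  | insert b S hb ih => exact hasSys_insert hb ih

/-- one star of one star-free language for every finite abelian group -/
theorem one_star_comm (α : Type) [Finite α] (G : Type) [CommGroup G] [Finite G] (f : α → G) :
    ∃ e : GRE α, e.height = 0 ∧
      ∀ u v : List α, H259.Syn (H259.kst e.lang) u v → (u.map f).prod = (v.map f).prod := by
  classical
  haveI := Fintype.ofFinite α
  have hm : NeZero (Nat.card G) := ⟨Nat.card_pos.ne'⟩
  obtain ⟨X, hX, act, r, pot, h1, h2, h3, h4, h5⟩ := hasSys α (Nat.card G) Finset.univ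
  haveI : Finite X := hX
  obtain ⟨e, he, -, hg⟩ := good_orbit act r pot h2
  refine ⟨e, he, fun u v huv => ?_⟩
  have e1 : ∀ x, go act x u = go act x v := by
    intro x
    obtain ⟨p, rfl⟩ := h4 x
    exact hg u v huv p
  have e2 := h5 u v e1
  have e3 : ∀ w : List α, (w.map f).prod = ∏ a, f a ^ w.count a := by
    intro w
    rw [Finset.prod_list_map_count]
    apply Finset.prod_subset (Finset.subset_univ _)
    intro a _ ha
    rw [List.mem_toFinset] at ha
    rw [List.count_eq_zero_of_not_mem ha, pow_zero]
  rw [e3, e3]
  apply Finset.prod_congr rfl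
  intro a _
  have e4 := (ZMod.natCast_eq_natCast_iff _ _ _).1 (e2 a (Finset.mem_univ a))
  have e5 : u.count a ≡ v.count a [MOD orderOf (f a)] := e4.of_dvd (orderOf_dvd_natCard _)
  exact pow_eq_pow_iff_modEq.2 e5

end Vale.Agent.P329.H548
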