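import Vale.Agent.P329.H548.Ab
import Vale.Agent.P329.H259.Collapse
import Mathlib.GroupTheory.Perm.Closure
import Mathlib.GroupTheory.Perm.Fin
import Mathlib.GroupTheory.Perm.Sign

/-! General criterion, monotone permutations, symmetric groups -/

namespace Vale.Agent.P329.H548

open Vale.Agent.P329

theorem perm_ai {X : Type} (f : Equiv.Perm X) (x : X) : f (f⁻¹ x) = x := f.apply_symm_apply x

theorem perm_ia {X : Type} (f : Equiv.Perm X) (x : X) : f⁻¹ (f x) = x := f.symm_apply_apply x

section gen

variable {α X : Type} (act : α → Equiv.Perm X)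

theorem foldl_go (w : List α) (x : X) : w.foldl (fun y a => act a y) x = go act x w := by
  induction w generalizing x with
  | nil => rfl
  | cons a w ih => exact ih _

theorem run_prefix (r : X) {s t : X} {w : List α} (h : run (dl act r) s w = some t)
    (p : List α) (hp : p ≠ []) (hw : p <+: w) : go act s p ≠ r := by
  induction w generalizing s p with
  | nil =>
    obtain ⟨q, hq⟩ := hw
    exact absurd (List.append_eq_nil_iff.1 hq).1 hp
  | cons a w ih =>
    obtain ⟨s', h1, h2⟩ := run_cons_eq_some h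
    rw [dl_some] at h1
    cases p with
    | nil => exact absurd rfl hp
    | cons b p =>
      obtain ⟨rfl, hpw⟩ := List.cons_prefix_cons.1 hw
      rw [go, h1.1]
      by_cases hp' : p = []
      · subst hp'; exact h1.2
      · exact ih h2 p hp' hpw

/-- the coset graph has no counters off the root -/
theorem noCyc_gen (r : X)
    (h : ∀ (v : List α) (x : X) (n : ℕ), 0 < n →
      (∀ p, p ≠ [] → p <+: (List.replicate n v).flatten → go act x p ≠ r) →
      go act x (List.replicate n v).flatten = x → go act x v = x) : NoCyc (dl act r) := by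
  intro z s n hn hs
  have h1 := h z s n hn (fun p hp hpw => run_prefix act r hs p hp hpw) (run_go act r hs)
  obtain ⟨m, rfl⟩ : ∃ m, n = m + 1 := ⟨n - 1, by omega⟩
  rw [List.replicate_succ, List.flatten_cons] at hs
  obtain ⟨s', h2, -⟩ := run_append_eq_some hs
  rw [h2, ← h1, run_go act r h2]

theorem good_gen [Finite α] [Finite X] (r : X) (h : NoCyc (dl act r)) :
    ∃ e : GRE α, e.height = 0 ∧ H259.kst e.lang = {w | go act r w = r} ∧
      ∀ u v, H259.Syn (H259.kst e.lang) u v → ∀ p,
        go act (go act r p) u = go act (go act r p) v := by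
  obtain ⟨e, he, hl⟩ := evt_sf h r
  refine ⟨e, Nat.le_zero.1 he, ?_, ?_⟩
  · rw [hl, kst_eq]
  · intro u v huv p
    rw [hl, kst_eq] at huv
    exact syn_orbit act r huv p

end gen

section mono

variable {α : Type} {n : ℕ} (σ : α → Equiv.Perm (Fin (n + 1)))

theorem reach (hσ : ∀ a z, z ≠ 0 → σ a z ≤ z) (a : α) (N : ℕ) : ∀ x : Fin (n + 1), x ≠ 0 →
    (σ a)⁻¹ x ≠ x → n + 1 - x.val ≤ N →
    ∃ k, go (fun a => (σ a)⁻¹) x (List.replicate k a) = 0 := by
  induction N with
  | zero => intro x _ _ h; have := x.isLt; omega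
  | succ N ih =>
    intro x hx hne hN
    by_cases hy : (σ a)⁻¹ x = 0
    · exact ⟨1, hy⟩
    · have h1 := hσ a _ hy
      rw [perm_ai] at h1
      have h2 : x < (σ a)⁻¹ x := lt_of_le_of_ne h1 (Ne.symm hne)
      have h3 : (σ a)⁻¹ ((σ a)⁻¹ x) ≠ (σ a)⁻¹ x := fun h => hne ((σ a)⁻¹.injective h)
      have h4 : x.val < ((σ a)⁻¹ x).val := h2
      obtain ⟨k, hk⟩ := ih ((σ a)⁻¹ x) hy h3 (by omega)
      exact ⟨k + 1, by rw [List.replicate_succ]; exact hk⟩

theorem mono_good [Finite α] (hσ : ∀ a z, z ≠ 0 → σ a z ≤ z) :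
    ∃ e : GRE α, e.height = 0 ∧ H259.kst e.lang = {w | (w.map σ).prod 0 = 0} ∧
      ∀ u v, H259.Syn (H259.kst e.lang) u v → (u.map σ).prod = (v.map σ).prod := by
  classical
  have hwp : ∀ (w : List α) (x : Fin (n + 1)),
      go (fun a => (σ a)⁻¹) x w = (w.map σ).prod⁻¹ x := by
    intro w x
    rw [← wp_apply]
    simp [wp]
  obtain ⟨e, he, hk, hg⟩ := good_orbit (fun a => (σ a)⁻¹) (0 : Fin (n + 1))
    (fun x => if x = 0 then n + 1 else x.val) (by
      intro a x hx
      by_cases hy : (σ a)⁻¹ x = 0
      · right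
        have := x.isLt
        simp only [if_neg hx, hy, if_true]
        exact this
      · have h1 := hσ a _ hy
        rw [perm_ai] at h1
        rcases eq_or_lt_of_le h1 with h | h
        · exact Or.inl h.symm
        · right
          simp only [if_neg hx, if_neg hy]
          exact h)
  refine ⟨e, he, ?_, ?_⟩
  · rw [hk]
    ext w
    change go (fun a => (σ a)⁻¹) 0 w = 0 ↔ (w.map σ).prod 0 = 0
    rw [hwp]
    constructor
    · intro h
      rw [← h, perm_ai, h]
    · intro h
      rw [Equiv.Perm.inv_eq_iff_eq]; exact h.symm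
  · intro u v huv
    have key : ∀ x, go (fun a => (σ a)⁻¹) x u = go (fun a => (σ a)⁻¹) x v := by
      intro x
      by_cases hx : ∃ p, go (fun a => (σ a)⁻¹) 0 p = x
      · obtain ⟨p, rfl⟩ := hx
        exact hg u v huv p
      · have h0 : x ≠ 0 := by rintro rfl; exact hx ⟨[], rfl⟩
        have hfix : ∀ a, (σ a)⁻¹ x = x := by
          intro a
          by_contra hne
          obtain ⟨k, hk⟩ := reach σ hσ a (n + 1 - x.val) x h0 hne le_rfl
          obtain ⟨q, hq⟩ := exists_back (fun a => (σ a)⁻¹) x (List.replicate k a)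
          rw [hk] at hq
          exact hx ⟨q, hq⟩
        have hw : ∀ w : List α, go (fun a => (σ a)⁻¹) x w = x := by
          intro w
          induction w with
          | nil => rfl
          | cons a w ih => rw [go, hfix a]; exact ih
        rw [hw, hw]
    have : (u.map σ).prod⁻¹ = (v.map σ).prod⁻¹ := by
      ext x : 1
      rw [← hwp, ← hwp]; exact key x
    exact inv_injective this

end mono

/-- all monotone permutations as an alphabet -/
abbrev MP (n : ℕ) : Type := {τ : Equiv.Perm (Fin (n + 1)) // ∀ z, z ≠ 0 → τ z ≤ z}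

theorem swap_mono {n : ℕ} (i : Fin (n + 1)) :
    ∀ z, z ≠ 0 → Equiv.swap (0 : Fin (n + 1)) i z ≤ z := by
  intro z hz
  by_cases h : z = i
  · subst h; rw [Equiv.swap_apply_right]; exact Fin.zero_le _
  · rw [Equiv.swap_apply_of_ne_of_ne hz h]

theorem mp_surj (n : ℕ) : Function.Surjective
    (fun w : List (MP n) => (w.map Subtype.val).prod) := by
  intro g
  have hg : g ∈ Submonoid.closure {τ : Equiv.Perm (Fin (n + 1)) | τ.IsSwap} := by
    rw [Equiv.Perm.mclosure_isSwap]; trivial
  induction hg using Submonoid.closure_induction with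
  | mem τ hτ =>
    obtain ⟨i, j, hij, rfl⟩ := hτ
    by_cases hi : i = 0
    · subst hi
      exact ⟨[⟨Equiv.swap 0 j, swap_mono j⟩], by simp⟩
    · by_cases hj : j = 0
      · subst hj
        exact ⟨[⟨Equiv.swap 0 i, swap_mono i⟩], by simp [Equiv.swap_comm]⟩
      · refine ⟨[⟨Equiv.swap 0 i, swap_mono i⟩, ⟨Equiv.swap 0 j, swap_mono j⟩,
          ⟨Equiv.swap 0 i, swap_mono i⟩], ?_⟩
        simp only [List.map_cons, List.map_nil, List.prod_cons, List.prod_nil, mul_one]
        have h1 : Equiv.swap (0 : Fin (n + 1)) i * (Equiv.swap 0 j * Equiv.swap 0 i) =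
            Equiv.swap 0 i * Equiv.swap 0 j * (Equiv.swap 0 i)⁻¹ := by
          rw [Equiv.swap_inv, mul_assoc]
        rw [h1]
        have h2 := Equiv.swap_apply_apply (Equiv.swap (0 : Fin (n + 1)) i) 0 j
        rw [← h2, Equiv.swap_apply_left, Equiv.swap_apply_of_ne_of_ne hj (Ne.symm hij)]
  | one => exact ⟨[], rfl⟩
  | mul a b _ _ ha hb =>
    obtain ⟨u, hu⟩ := ha
    obtain ⟨v, hv⟩ := hb
    refine ⟨u ++ v, ?_⟩
    simp only [List.map_append, List.prod_append]
    rw [← hu, ← hv]

/-- the two letters `(0 n .. 1)` and `(0 1)` -/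
def two (n : ℕ) : Bool → Equiv.Perm (Fin (n + 2))
  | true => (finRotate (n + 2))⁻¹
  | false => Equiv.swap 0 1

theorem two_mono (n : ℕ) : ∀ a z, z ≠ 0 → two n a z ≤ z := by
  intro a z hz
  cases a with
  | false => exact swap_mono 1 z hz
  | true =>
    change (finRotate (n + 2))⁻¹ z ≤ z
    obtain ⟨y, rfl⟩ := (finRotate (n + 2)).surjective z
    rw [perm_ia]
    by_cases hy : y = Fin.last (n + 1)
    · subst hy
      exact absurd finRotate_last hz
    · have h1 : y.val < n + 1 := by
        have := y.isLt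
        have : y.val ≠ n + 1 := fun h => hy (Fin.ext h)
        omega
      have h2 : finRotate (n + 2) y = ⟨y.val + 1, by omega⟩ := by
        have := finRotate_of_lt (n := n + 1) (k := y.val) h1
        exact this
      rw [h2]
      exact Fin.le_iff_val_le_val.2 (by simp)

theorem two_closure (n : ℕ) : Subgroup.closure (Set.range (two n)) = ⊤ := by
  have h := Equiv.Perm.closure_cycle_adjacent_swap (isCycle_finRotate (n := n))
    (support_finRotate (n := n)) 0
  rw [eq_top_iff, ← h, Subgroup.closure_le]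
  intro τ hτ
  rcases hτ with rfl | hτ
  · have : (finRotate (n + 2))⁻¹ ∈ Subgroup.closure (Set.range (two n)) :=
      Subgroup.subset_closure ⟨true, rfl⟩
    have := Subgroup.inv_mem _ this
    rwa [inv_inv] at this
  · rw [Set.mem_singleton_iff] at hτ
    rw [hτ]
    have h0 : finRotate (n + 2) 0 = 1 := by
      have := finRotate_of_lt (n := n + 1) (k := 0) (by omega)
      exact this
    rw [h0]
    exact Subgroup.subset_closure ⟨false, rfl⟩

/-- union of classes of one star: height at most one -/
theorem height_one {α : Type} {e : GRE α} (he : e.height = 0) (L : Set (List α))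
    (hL : ∀ u v, H259.Syn (H259.kst e.lang) u v → (u ∈ L ↔ v ∈ L)) :
    ∃ x : GRE α, x.height ≤ 1 ∧ x.lang = L :=
  H259.collapse_mpr 0 [e] (by simpa using he) L fun u v huv => hL u v (huv e (by simp))

end Vale.Agent.P329.H548
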