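import Vale.Agent.P329.Bdl.B2
import Vale.Agent.P329.H259.Simple
import Mathlib.GroupTheory.Perm.Basic
import Mathlib.GroupTheory.OrderOfElement
import Mathlib.Algebra.BigOperators.Group.Finset.Basic

/-! One star: monotone permutation systems -/

namespace Vale.Agent.P329.H548

open Vale.Agent.P329

section go

variable {α X : Type} (act : α → Equiv.Perm X)

/-- reading a word from a point -/
def go : X → List α → X
  | x, [] => x
  | x, a :: w => go (act a x) w

theorem go_append (x : X) (u v : List α) : go act x (u ++ v) = go act (go act x u) v := by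
  induction u generalizing x with
  | nil => rfl
  | cons a u ih => exact ih _

/-- the permutation of a word -/
def wp (w : List α) : Equiv.Perm X := (w.map fun a => (act a)⁻¹).prod⁻¹

theorem wp_apply (w : List α) (x : X) : wp act w x = go act x w := by
  induction w generalizing x with
  | nil => simp [wp, go]
  | cons a w ih =>
    have : wp act (a :: w) = wp act w * act a := by simp [wp]
    rw [this, Equiv.Perm.mul_apply, ih]; rfl

theorem go_inj {x y : X} (w : List α) (h : go act x w = go act y w) : x = y := by
  rw [← wp_apply, ← wp_apply] at h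
  exact (wp act w).injective h

theorem go_pw (n : ℕ) (w : List α) (x : X) : go act x (pw n w) = ((wp act w) ^ n) x := by
  induction n generalizing x with
  | zero => rfl
  | succ n ih =>
    rw [pw_succ, go_append, ih, pow_succ, Equiv.Perm.mul_apply, wp_apply]

theorem exists_back [Finite X] (r : X) (p : List α) : ∃ q, go act (go act r p) q = r := by
  have h0 : 0 < orderOf (wp act p) := orderOf_pos _
  refine ⟨pw (orderOf (wp act p) - 1) p, ?_⟩
  rw [← go_append, ← pw_succ, go_pw, Nat.sub_add_cancel h0, pow_orderOf_eq_one]
  rfl

end go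

section ret

variable {α X : Type} (act : α → Equiv.Perm X) (r : X)

open Classical in
/-- the automaton without the root -/
noncomputable def dl (x : X) (a : α) : Option X := if act a x = r then none else some (act a x)

theorem dl_none {x : X} {a : α} : dl act r x a = none ↔ act a x = r := by
  unfold dl; split_ifs with h <;> simp [h]

theorem dl_some {x t : X} {a : α} : dl act r x a = some t ↔ act a x = t ∧ t ≠ r := by
  unfold dl
  split_ifs with h
  · constructor
    · intro h'; cases h'
    · rintro ⟨h1, h2⟩; exact absurd (h1.symm.trans h) h2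
  · constructor
    · intro h'; cases h'; exact ⟨rfl, h⟩
    · rintro ⟨h1, _⟩; rw [h1]

open Classical in
theorem dl_noCyc (pot : X → ℕ) (hp : ∀ a x, x ≠ r → act a x = x ∨ pot x < pot (act a x)) :
    NoCyc (dl act r) := by
  apply noCyc_of_pot (fun x => if x = r then 0 else pot x + 1)
  intro s x t h
  rw [dl_some] at h
  obtain ⟨h1, h2⟩ := h
  by_cases hs : s = r
  · right; simp only [hs, if_true, if_neg h2]; omega
  · rcases hp x s hs with h3 | h3
    · left; rw [← h1, h3]
    · right; simp only [if_neg hs, if_neg h2]; rw [h1] at h3; omega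

theorem run_go {s t : X} {w : List α} (h : run (dl act r) s w = some t) : go act s w = t := by
  induction w generalizing s with
  | nil => simpa [run, go] using h
  | cons a w ih =>
    obtain ⟨s', h1, h2⟩ := run_cons_eq_some h
    rw [dl_some] at h1
    rw [go, h1.1]
    exact ih h2

theorem kst_nil (K : Set (List α)) : [] ∈ H259.kst K := ⟨[], by simp, rfl⟩

theorem kst_cons {K : Set (List α)} {u v : List α} (hu : u ∈ K) (hv : v ∈ H259.kst K) :
    u ++ v ∈ H259.kst K := by
  obtain ⟨L, hL, rfl⟩ := hv
  refine ⟨u :: L, ?_, rfl⟩
  intro w hw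
  rcases List.mem_cons.1 hw with rfl | hw
  · exact hu
  · exact hL w hw

theorem first (w : List α) : ∀ s, go act s w = r → w = [] ∨ ∃ u x v, w = u ++ x :: v ∧
    (∃ t, run (dl act r) s u = some t ∧ dl act r t x = none) ∧
      v ∈ H259.kst (evt (dl act r) r) := by
  induction w with
  | nil => intro s _; exact Or.inl rfl
  | cons a w ih =>
    intro s hs
    right
    by_cases h : act a s = r
    · refine ⟨[], a, w, rfl, ⟨s, rfl, (dl_none act r).2 h⟩, ?_⟩
      have h1 : go act r w = r := by rw [go, h] at hs; exact hs
      rcases ih r h1 with rfl | ⟨u, x, v, rfl, ⟨t, ht, hx⟩, hv⟩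
      · exact kst_nil _
      · have : u ++ x :: v = (u ++ [x]) ++ v := by simp
        rw [this]
        exact kst_cons ⟨u, x, t, ht, hx, rfl⟩ hv
    · have h1 : dl act r s a = some (act a s) := (dl_some act r).2 ⟨rfl, h⟩
      rcases ih (act a s) hs with rfl | ⟨u, x, v, rfl, ⟨t, ht, hx⟩, hv⟩
      · exact absurd hs h
      · refine ⟨a :: u, x, v, rfl, ⟨t, ?_, hx⟩, hv⟩
        simp only [run, h1, Option.elim]
        exact ht

theorem kst_eq : H259.kst (evt (dl act r) r) = {w | go act r w = r} := by
  ext w
  constructor
  · rintro ⟨L, hL, rfl⟩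
    change go act r L.flatten = r
    induction L with
    | nil => rfl
    | cons u L ih =>
      obtain ⟨u', x, t, h1, h2, rfl⟩ := hL _ List.mem_cons_self
      rw [List.flatten_cons, go_append, go_append, run_go act r h1]
      have h3 : go act t [x] = r := (dl_none act r).1 h2
      rw [h3]
      exact ih fun u hu => hL u (List.mem_cons_of_mem _ hu)
  · intro hw
    rcases first act r w r hw with rfl | ⟨u, x, v, rfl, ⟨t, ht, hx⟩, hv⟩
    · exact kst_nil _
    · have : u ++ x :: v = (u ++ [x]) ++ v := by simp
      rw [this]
      exact kst_cons ⟨u, x, t, ht, hx, rfl⟩ hv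

theorem syn_orbit [Finite X] {u v : List α} (h : H259.Syn {w | go act r w = r} u v) (p : List α) :
    go act (go act r p) u = go act (go act r p) v := by
  obtain ⟨q, hq⟩ := exists_back act r (p ++ u)
  have h1 : p ++ u ++ q ∈ {w | go act r w = r} := by
    change go act r (p ++ u ++ q) = r
    rw [go_append]; exact hq
  have h2 : go act r (p ++ v ++ q) = r := (h p q).1 h1
  have h3 : go act r (p ++ u ++ q) = r := h1
  rw [go_append, go_append] at h2 h3
  exact go_inj act q (h3.trans h2.symm)

theorem good_orbit [Finite α] [Finite X] (pot : X → ℕ)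
    (hp : ∀ a x, x ≠ r → act a x = x ∨ pot x < pot (act a x)) :
    ∃ e : GRE α, e.height = 0 ∧ H259.kst e.lang = {w | go act r w = r} ∧
      ∀ u v, H259.Syn (H259.kst e.lang) u v → ∀ p,
        go act (go act r p) u = go act (go act r p) v := by
  obtain ⟨e, he, hl⟩ := evt_sf (dl_noCyc act r pot hp) r
  refine ⟨e, Nat.le_zero.1 he, ?_, ?_⟩
  · rw [hl, kst_eq]
  · intro u v huv p
    rw [hl, kst_eq] at huv
    exact syn_orbit act r huv p

end ret

end Vale.Agent.P329.H548
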